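import Vale.Agent.P200.Base

open Module MvPolynomial

namespace Vale.Agent.Results.P200.Quadrics

universe u

theorem result (K : Type u) [Field K] (n c : ℕ) (hc1 : 1 ≤ c) (hcn : c ≤ n)
    (f : Fin c → MvPolynomial (Fin n) K) (hf : ∀ i, (f i).IsHomogeneous 2)
    (hreg : ∀ (i : Fin c) (g : MvPolynomial (Fin n) K),
      f i * g ∈ Ideal.span (f '' {j | j < i}) → g ∈ Ideal.span (f '' {j | j < i}))
    (I : Ideal (MvPolynomial (Fin n) K))
    (_hI : ∀ p ∈ I, ∀ d, homogeneousComponent d p ∈ I) (hfI : ∀ i, f i ∈ I) :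
    ∃ (T : Set (Fin n →₀ ℕ)) (M : Ideal (MvPolynomial (Fin n) K)),
      M = Ideal.span ((fun u => monomial u (1 : K)) '' T) ∧
      (∀ i : Fin c, X (Fin.castLE hcn i) ^ 2 ∈ M) ∧
      ∀ d : ℕ, finrank K ↥(homogeneousSubmodule (Fin n) K d ⊓ I.restrictScalars K) =
        finrank K ↥(homogeneousSubmodule (Fin n) K d ⊓ M.restrictScalars K) := by
  obtain ⟨T, h1, h2, h3⟩ := Vale.Agent.P200.main_all hc1 hcn f hf (fun i => hreg i) I hfI
  refine ⟨T, _, rfl, fun i => Ideal.subset_span ⟨_, h2 i, X_pow_eq_monomial.symm⟩, fun d => ?_⟩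
  exact (h3 d).trans (Vale.Agent.P200.finrank_mono_ideal T h1 d).symm

end Vale.Agent.Results.P200.Quadrics
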